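import Vale.Agent.Lib.P038.Sat.Top
import Vale.Agent.Lib.P038.Sat.I.L1_0.Main
import Vale.Agent.Lib.P038.Sat.I.L1_1.Main
import Vale.Agent.Lib.P038.Sat.I.L1_2.Main
import Vale.Agent.Lib.P038.Sat.I.L1_3.Main
import Vale.Agent.Lib.P038.Sat.I.L1_4.Main
import Vale.Agent.Lib.P038.Sat.I.L1_5.Main
import Vale.Agent.Lib.P038.Sat.I.L2a.Main
import Vale.Agent.Lib.P038.Sat.I.L2b.Main
import Vale.Agent.Lib.P038.Sat.I.Reg.Main
import Vale.Agent.Lib.P038.Sat.I.M1_0.Main
import Vale.Agent.Lib.P038.Sat.I.M1_1.Main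
import Vale.Agent.Lib.P038.Sat.I.M1_2.Main
import Vale.Agent.Lib.P038.Sat.I.M1_3.Main
import Vale.Agent.Lib.P038.Sat.I.M1_4.Main
import Vale.Agent.Lib.P038.Sat.I.M1_5.Main
import Vale.Agent.Lib.P038.Sat.I.M1_6.Main
import Vale.Agent.Lib.P038.Sat.I.M1_7.Main
import Vale.Agent.Lib.P038.Sat.I.M1_8.Main
import Vale.Agent.Lib.P038.Sat.I.M2_0.Main
import Vale.Agent.Lib.P038.Sat.I.M2_1.Main
import Vale.Agent.Lib.P038.Sat.I.M2_2.Main
import Vale.Agent.Lib.P038.Sat.I.M2_3.Main
import Vale.Agent.Lib.P038.Sat.I.M2_4.Main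
import Vale.Agent.Lib.P038.Sat.I.M2_5.Main
import Vale.Agent.Lib.P038.Sat.I.M2_6.Main
import Vale.Agent.Lib.P038.Sat.I.M2_7.Main
import Vale.Agent.Lib.P038.Sat.I.M2_8.Main
import Vale.Agent.Lib.P038.Sat.I.M3_0.Main
import Vale.Agent.Lib.P038.Sat.I.M3_1.Main
import Vale.Agent.Lib.P038.Sat.I.M3_2.Main
import Vale.Agent.Lib.P038.Sat.I.M3_3.Main
import Vale.Agent.Lib.P038.Sat.I.M3_4.Main
import Vale.Agent.Lib.P038.Sat.I.M3_5.Main
import Vale.Agent.Lib.P038.Sat.I.M3_6.Main
import Vale.Agent.Lib.P038.Sat.I.M3_7.Main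
import Vale.Agent.Lib.P038.Sat.I.M3_8.Main
/-!
All cases together: no counterexample has a vertex of out-degree seven.
-/
namespace Vale.Agent.Lib.P038.Sat

open Finset Vale.Agent.Lib.P038

theorem hL1_all : ∀ m, m ≤ 5 → ∀ K, Good (shL m) (flL1 m) K → False := by
  intro m hm K hK
  interval_cases m
  · exact I.L1_0.unsat K hK
  · exact I.L1_1.unsat K hK
  · exact I.L1_2.unsat K hK
  · exact I.L1_3.unsat K hK
  · exact I.L1_4.unsat K hK
  · exact I.L1_5.unsat K hK

theorem hM_all : ∀ q c, (q = 1 ∨ q = 2 ∨ q = 3) → c ≤ 8 → ∀ K, Good (shT c) (flM q) K → False := by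
  intro q c hq hc K hK
  rcases hq with rfl | rfl | rfl
  · interval_cases c
    · exact I.M1_0.unsat K hK
    · exact I.M1_1.unsat K hK
    · exact I.M1_2.unsat K hK
    · exact I.M1_3.unsat K hK
    · exact I.M1_4.unsat K hK
    · exact I.M1_5.unsat K hK
    · exact I.M1_6.unsat K hK
    · exact I.M1_7.unsat K hK
    · exact I.M1_8.unsat K hK
  · interval_cases c
    · exact I.M2_0.unsat K hK
    · exact I.M2_1.unsat K hK
    · exact I.M2_2.unsat K hK
    · exact I.M2_3.unsat K hK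
    · exact I.M2_4.unsat K hK
    · exact I.M2_5.unsat K hK
    · exact I.M2_6.unsat K hK
    · exact I.M2_7.unsat K hK
    · exact I.M2_8.unsat K hK
  · interval_cases c
    · exact I.M3_0.unsat K hK
    · exact I.M3_1.unsat K hK
    · exact I.M3_2.unsat K hK
    · exact I.M3_3.unsat K hK
    · exact I.M3_4.unsat K hK
    · exact I.M3_5.unsat K hK
    · exact I.M3_6.unsat K hK
    · exact I.M3_7.unsat K hK
    · exact I.M3_8.unsat K hK

/-- No oriented graph has all vertices with fewer second than first out-neighbours, minimum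
out-degree at least seven and a vertex of out-degree seven. -/
theorem seven {V : Type*} [Fintype V] {r : V → V → Prop}
    (hr : ∀ u w, r u w → ¬ r w u) (hns : ∀ u, (second r u).card < (out r u).card)
    (hdeg : ∀ u, 7 ≤ (out r u).card) {v : V} (hv : (out r v).card = 7) : False :=
  seven_core hL1_all I.L2a.unsat I.L2b.unsat I.Reg.unsat hM_all hr hns hdeg hv

end Vale.Agent.Lib.P038.Sat
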