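/-!
A small checker for unit-propagation certificates (LRAT style), evaluated by the kernel, with a
soundness proof.  Clauses are bit masks: bit `i` of a mask stands for the literal `i`.  For the
width `W`, the literal `i` means the variable `i % W` when `i / W` is even and its negation when
`i / W` is odd.
-/
noncomputable section
namespace Vale.Agent.Lib.P038.Sat

/-- A search tree: inner nodes hold a pivot, leaves hold a number. -/
inductive T where
  | l (b : Nat) : T
  | n (p : Nat) (a b : T) : T

/-- Read the leaf reached by key `i`. -/
def getB : T → Nat → Nat :=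
  fun t => T.rec (motive := fun _ => Nat → Nat) (fun b _ => b)
    (fun p _ _ ia ib i => Bool.rec (ib i) (ia i) (Nat.ble i p)) t

/-- Replace the leaf reached by key `i`. -/
def setB : T → Nat → Nat → T :=
  fun t => T.rec (motive := fun _ => Nat → Nat → T) (fun _ _ v => T.l v)
    (fun p a b ia ib i v => Bool.rec (T.n p a (ib i v)) (T.n p (ia i v) b) (Nat.ble i p)) t

/-- A balanced tree of depth `d` on the keys from `lo`, all leaves equal to `tt`. -/
def mk (tt : Nat) : Nat → Nat → T :=
  fun d => Nat.rec (motive := fun _ => Nat → T) (fun _ => T.l tt)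
    (fun d ih lo => T.n (Nat.add lo (Nat.sub (Nat.pow 2 d) 1)) (ih lo) (ih (Nat.add lo (Nat.pow 2 d)))) d

/-- Result of a bounded run of unit propagation. -/
inductive S3 where
  | ok : S3
  | bad : S3
  | more (s σ : Nat) : S3

/-- Unit propagation along a stream of 13 bit keys, at most `fuel` steps. -/
def seg (W M : Nat) (db : T) : Nat → Nat → Nat → S3 :=
  fun fuel => Nat.rec (motive := fun _ => Nat → Nat → S3) (fun s σ => S3.more s σ)
    (fun _ ih s σ =>
      (fun c =>
        (fun r =>
          Bool.rec (
            Bool.rec S3.bad
              (ih (Nat.shiftRight s 13) (Nat.lor σ (Bool.rec (Nat.shiftRight r W) (Nat.shiftLeft r W) (Nat.ble r M))))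
              (Nat.beq (Nat.land r (Nat.sub r 1)) 0))
            S3.ok (Nat.beq r 0)) (Nat.xor c (Nat.land c σ)))
        (getB db (Nat.land s 8191))) fuel

/-- Repeat `seg` until a conflict is found. -/
def hints (W M : Nat) (db : T) : Nat → Nat → Nat → Bool :=
  fun fuel => Nat.rec (motive := fun _ => Nat → Nat → Bool) (fun _ _ => false)
    (fun _ ih s σ => S3.rec true false (fun s' σ' => ih s' σ') (seg W M db 64 s σ)) fuel

/-- Read the literals of a new clause (tokens `l + 1`, ended by `0`), then check it by propagation.
The result is the mask plus one, or `0` on failure. -/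
def lits (W M : Nat) (db : T) : Nat → Nat → Nat → Nat :=
  fun fuel => Nat.rec (motive := fun _ => Nat → Nat → Nat) (fun _ _ => 0)
    (fun _ ih s m =>
      (fun t =>
      Bool.rec (ih (Nat.shiftRight s 13) (Nat.lor m (Nat.shiftLeft 1 (Nat.sub t 1))))
        (Bool.rec 0 (Nat.add m 1) (hints W M db 64 (Nat.shiftRight s 13) m))
        (Nat.beq t 0)) (Nat.land s 8191)) fuel

/-- One derivation step: the lowest token is the key where the new clause is stored. -/
def lemma1 (W M : Nat) (db : T) (x : Nat) : Option T :=
  (fun m =>
    Bool.rec (some (setB db (Nat.land x 8191) (Nat.sub m 1))) none (Nat.beq m 0))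
    (lits W M db 8191 (Nat.shiftRight x 13) 0)

def run (W M : Nat) : List Nat → T → Option T :=
  fun l => List.rec (motive := fun _ => T → Option T) (fun db => some db)
    (fun x _ ih db => Option.rec none (fun db' => ih db') (lemma1 W M db x)) l

def runAll (W M : Nat) : List (List Nat) → T → Option T :=
  fun l => List.rec (motive := fun _ => T → Option T) (fun db => some db)
    (fun x _ ih db => Option.rec none (fun db' => ih db') (run W M x db)) l

/-! ### Meaning of literals and masks -/

/-- Truth value of the literal `i` under the assignment `τ`. -/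
def litV (W : Nat) (τ : Nat → Bool) (i : Nat) : Bool :=
  if (i / W) % 2 = 0 then τ (i % W) else !τ (i % W)

/-- The clause given by mask `m` holds under `τ`. -/
def maskTrue (W : Nat) (τ : Nat → Bool) (m : Nat) : Prop :=
  ∃ i, m.testBit i = true ∧ litV W τ i = true

/-- All literals of the mask `σ` are false under `τ`. -/
def Fals (W : Nat) (τ : Nat → Bool) (σ : Nat) : Prop :=
  ∀ i, σ.testBit i = true → litV W τ i = false

/-- All leaves of the tree hold. -/
def Inv (W : Nat) (τ : Nat → Bool) (db : T) : Prop :=
  ∀ i, maskTrue W τ (getB db i)

theorem litV_add (W : Nat) (hW : 0 < W) (τ : Nat → Bool) (i : Nat) :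
    litV W τ (i + W) = !litV W τ i := by
  unfold litV
  have h1 : (i + W) / W = i / W + 1 := Nat.add_div_right i hW
  have h2 : (i + W) % W = i % W := Nat.add_mod_right i W
  rw [h1, h2]
  have h3 : (i / W) % 2 = 0 ∨ (i / W) % 2 = 1 := by omega
  rcases h3 with h3 | h3
  · have h4 : (i / W + 1) % 2 = 1 := by omega
    simp [h3, h4]
  · have h4 : (i / W + 1) % 2 = 0 := by omega
    simp [h3, h4]

theorem getB_setB (t : T) : ∀ (i v j : Nat), getB (setB t i v) j = v ∨ getB (setB t i v) j = getB t j := by
  induction t with
  | l b => intro i v j; exact Or.inl rfl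
  | n p a b iha ihb =>
    intro i v j
    have e1 : setB (T.n p a b) i v = Bool.rec (T.n p a (setB b i v)) (T.n p (setB a i v) b) (Nat.ble i p) := rfl
    rw [e1]
    cases Nat.ble i p with
    | false =>
      have e2 : ∀ c, getB (T.n p a c) j = Bool.rec (getB c j) (getB a j) (Nat.ble j p) := fun _ => rfl
      show getB (T.n p a (setB b i v)) j = v ∨ getB (T.n p a (setB b i v)) j = getB (T.n p a b) j
      rw [e2, e2]
      cases Nat.ble j p with
      | false => exact ihb i v j
      | true => exact Or.inr rfl
    | true =>
      have e2 : ∀ c, getB (T.n p c b) j = Bool.rec (getB b j) (getB c j) (Nat.ble j p) := fun _ => rfl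
      show getB (T.n p (setB a i v) b) j = v ∨ getB (T.n p (setB a i v) b) j = getB (T.n p a b) j
      rw [e2, e2]
      cases Nat.ble j p with
      | false => exact Or.inr rfl
      | true => exact iha i v j

theorem inv_setB {W : Nat} {τ : Nat → Bool} {db : T} (h : Inv W τ db) (i : Nat) {v : Nat}
    (hv : maskTrue W τ v) : Inv W τ (setB db i v) := by
  intro j
  rcases getB_setB db i v j with e | e
  · rw [e]; exact hv
  · rw [e]; exact h j

theorem inv_mk {W : Nat} {τ : Nat → Bool} {tt : Nat} (h : maskTrue W τ tt) (d : Nat) :
    ∀ lo, Inv W τ (mk tt d lo) := by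
  induction d with
  | zero => intro lo i; exact h
  | succ d ih =>
    intro lo i
    show maskTrue W τ (Bool.rec (getB (mk tt d (Nat.add lo (Nat.pow 2 d))) i) (getB (mk tt d lo) i) (Nat.ble i _))
    cases Nat.ble i _ with
    | false => exact ih _ i
    | true => exact ih _ i

/-- The tautology used for empty places. -/
theorem maskTrue_tt (W : Nat) (hW : 0 < W) (τ : Nat → Bool) :
    maskTrue W τ (Nat.lor 1 (Nat.shiftLeft 1 W)) := by
  have b0 : (Nat.lor 1 (Nat.shiftLeft 1 W)).testBit 0 = true := by
    show (1 ||| (1 <<< W)).testBit 0 = true
    simp [Nat.testBit_or]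
  have b1 : (Nat.lor 1 (Nat.shiftLeft 1 W)).testBit (0 + W) = true := by
    show (1 ||| (1 <<< W)).testBit (0 + W) = true
    rw [Nat.testBit_or]
    simp [Nat.testBit_shiftLeft]
  by_cases h : litV W τ 0 = true
  · exact ⟨0, b0, h⟩
  · refine ⟨0 + W, b1, ?_⟩
    rw [litV_add W hW]
    simp at h
    simp [h]

/-- A number with `r &&& (r - 1) = 0` has at most one bit. -/
theorem single_bit : ∀ (k r j : Nat), j < k → r.testBit j = true → r.testBit k = true →
    (r &&& (r - 1)) ≠ 0 := by
  intro k
  induction k with
  | zero => intro r j h; exact absurd h (Nat.not_lt_zero j)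
  | succ k ih =>
    intro r j hj hrj hrk h0
    have hk : (r / 2).testBit k = true := by
      have : r.testBit (k + 1) = (r / 2).testBit k := by
        rw [Nat.testBit_succ]
      rw [← this]; exact hrk
    by_cases hodd : r % 2 = 1
    · -- the bit `k + 1` survives in `r - 1`
      have hr1 : (r - 1) / 2 = r / 2 := by omega
      have hb : (r - 1).testBit (k + 1) = true := by
        rw [Nat.testBit_succ, hr1]; exact hk
      have : (r &&& (r - 1)).testBit (k + 1) = true := by
        rw [Nat.testBit_and, hrk, hb]; rfl
      rw [h0] at this
      simp at this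
    · have heven : r % 2 = 0 := by omega
      cases j with
      | zero =>
        have : r.testBit 0 = true := hrj
        rw [Nat.testBit_zero] at this
        simp [heven] at this
      | succ j =>
        have hq : (r / 2).testBit j = true := by
          have : r.testBit (j + 1) = (r / 2).testBit j := by rw [Nat.testBit_succ]
          rw [← this]; exact hrj
        refine ih (r / 2) j (by omega) hq hk ?_
        have hq0 : r / 2 ≠ 0 := by
          intro h; rw [h] at hk; simp at hk
        have e : (r - 1) / 2 = r / 2 - 1 := by omega
        have e2 : (r &&& (r - 1)) / 2 = (r / 2) &&& ((r - 1) / 2) := Nat.and_div_two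
        rw [← e, ← e2, h0]

theorem single_bit_eq {r j k : Nat} (h : (r &&& (r - 1)) = 0) (hj : r.testBit j = true)
    (hk : r.testBit k = true) : j = k := by
  rcases Nat.lt_trichotomy j k with hl | he | hl
  · exact absurd h (single_bit k r j hl hj hk)
  · exact he
  · exact absurd h (single_bit j r k hl hk hj)

/-- What a bounded run of propagation guarantees. -/
def S3.good (W : Nat) (τ : Nat → Bool) : S3 → Prop
  | .ok => False
  | .bad => True
  | .more _ σ => Fals W τ σ

theorem fals_step {W : Nat} (hW : 0 < W) {τ : Nat → Bool} {σ c M : Nat}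
    (hc : maskTrue W τ c) (hσ : Fals W τ σ)
    (r : Nat) (hr : r = Nat.xor c (Nat.land c σ)) (h1 : (r &&& (r - 1)) = 0) :
    Fals W τ (Nat.lor σ (Bool.rec (Nat.shiftRight r W) (Nat.shiftLeft r W) (Nat.ble r M))) := by
  obtain ⟨j, hj, hjt⟩ := hc
  have hjs : σ.testBit j = false := by
    cases h : σ.testBit j with
    | false => rfl
    | true => have := hσ j h; rw [hjt] at this; cases this
  have hrj : r.testBit j = true := by
    subst hr
    show (c ^^^ (c &&& σ)).testBit j = true
    rw [Nat.testBit_xor, Nat.testBit_and, hj, hjs]; rfl
  intro i hi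
  have hi' : (σ ||| (Bool.rec (Nat.shiftRight r W) (Nat.shiftLeft r W) (Nat.ble r M) : Nat)).testBit i = true := hi
  rw [Nat.testBit_or] at hi'
  cases hs : σ.testBit i with
  | true => exact hσ i hs
  | false =>
    rw [hs] at hi'
    have hi2 : (Bool.rec (Nat.shiftRight r W) (Nat.shiftLeft r W) (Nat.ble r M) : Nat).testBit i = true := by
      simpa using hi'
    cases hb : Nat.ble r M with
    | true =>
      rw [hb] at hi2
      have hi3 : (r <<< W).testBit i = true := hi2
      rw [Nat.testBit_shiftLeft] at hi3
      have hi4 : (decide (i ≥ W) && r.testBit (i - W)) = true := hi3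
      have h5 : W ≤ i := by
        cases hd : decide (i ≥ W) with
        | true => exact of_decide_eq_true hd
        | false => rw [hd] at hi4; cases hi4
      have h6 : r.testBit (i - W) = true := by
        cases hd : r.testBit (i - W) with
        | true => rfl
        | false => rw [hd] at hi4; simp at hi4
      have h7 := single_bit_eq h1 h6 hrj
      have h8 : i = j + W := by omega
      rw [h8, litV_add W hW, hjt]; rfl
    | false =>
      rw [hb] at hi2
      have hi3 : (r >>> W).testBit i = true := hi2
      rw [Nat.testBit_shiftRight] at hi3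
      have h6 : r.testBit (W + i) = true := hi3
      have h7 := single_bit_eq h1 h6 hrj
      have h8 : j = i + W := by omega
      rw [h8, litV_add W hW] at hjt
      cases h9 : litV W τ i with
      | false => rfl
      | true => rw [h9] at hjt; cases hjt

theorem seg_sound {W M : Nat} (hW : 0 < W) {τ : Nat → Bool} {db : T} (hdb : Inv W τ db) :
    ∀ fuel s σ, Fals W τ σ → S3.good W τ (seg W M db fuel s σ) := by
  intro fuel
  induction fuel with
  | zero => intro s σ h; exact h
  | succ f ih =>
    intro s σ hσ
    have e : seg W M db (f + 1) s σ =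
      (Bool.rec (
            Bool.rec S3.bad
              (seg W M db f (Nat.shiftRight s 13) (Nat.lor σ (Bool.rec (Nat.shiftRight (Nat.xor (getB db (Nat.land s 8191)) (Nat.land (getB db (Nat.land s 8191)) σ)) W) (Nat.shiftLeft (Nat.xor (getB db (Nat.land s 8191)) (Nat.land (getB db (Nat.land s 8191)) σ)) W) (Nat.ble (Nat.xor (getB db (Nat.land s 8191)) (Nat.land (getB db (Nat.land s 8191)) σ)) M))))
              (Nat.beq (Nat.land (Nat.xor (getB db (Nat.land s 8191)) (Nat.land (getB db (Nat.land s 8191)) σ)) (Nat.sub (Nat.xor (getB db (Nat.land s 8191)) (Nat.land (getB db (Nat.land s 8191)) σ)) 1)) 0))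
            S3.ok (Nat.beq (Nat.xor (getB db (Nat.land s 8191)) (Nat.land (getB db (Nat.land s 8191)) σ)) 0) : S3) := rfl
    rw [e]
    generalize hc : getB db (Nat.land s 8191) = c
    have hcT : maskTrue W τ c := by rw [← hc]; exact hdb _
    generalize hr : Nat.xor c (Nat.land c σ) = r
    cases h0 : Nat.beq r 0 with
    | true =>
      -- conflict: `r = 0` contradicts the true literal
      have hr0 : r = 0 := Nat.eq_of_beq_eq_true h0
      obtain ⟨j, hj, hjt⟩ := hcT
      have hjs : σ.testBit j = false := by
        cases h : σ.testBit j with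
        | false => rfl
        | true => have := hσ j h; rw [hjt] at this; cases this
      have hrj : r.testBit j = true := by
        rw [← hr]
        show (c ^^^ (c &&& σ)).testBit j = true
        rw [Nat.testBit_xor, Nat.testBit_and, hj, hjs]; rfl
      rw [hr0] at hrj
      simp at hrj
    | false =>
      cases h1 : Nat.beq (Nat.land r (Nat.sub r 1)) 0 with
      | false => exact True.intro
      | true =>
        have h1' : (r &&& (r - 1)) = 0 := Nat.eq_of_beq_eq_true h1
        exact ih _ _ (fals_step hW hcT hσ r hr.symm h1')

theorem hints_sound {W M : Nat} (hW : 0 < W) {τ : Nat → Bool} {db : T} (hdb : Inv W τ db) :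
    ∀ fuel s σ, hints W M db fuel s σ = true → Fals W τ σ → False := by
  intro fuel
  induction fuel with
  | zero => intro s σ h; cases h
  | succ f ih =>
    intro s σ h hσ
    have e : hints W M db (f + 1) s σ =
      S3.rec true false (fun s' σ' => hints W M db f s' σ') (seg W M db 64 s σ) := rfl
    rw [e] at h
    have hg := seg_sound (M := M) hW hdb 64 s σ hσ
    cases hs : seg W M db 64 s σ with
    | ok => rw [hs] at hg; exact hg
    | bad => rw [hs] at h; cases h
    | more s' σ' =>
      rw [hs] at h hg
      exact ih s' σ' h hg

theorem lits_sound {W M : Nat} (hW : 0 < W) {τ : Nat → Bool} {db : T} (hdb : Inv W τ db) :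
    ∀ fuel s m x, lits W M db fuel s m = x + 1 → maskTrue W τ x := by
  intro fuel
  induction fuel with
  | zero => intro s m x h; cases h
  | succ f ih =>
    intro s m x h
    have e : lits W M db (f + 1) s m =
      Bool.rec (lits W M db f (Nat.shiftRight s 13) (Nat.lor m (Nat.shiftLeft 1 (Nat.sub (Nat.land s 8191) 1))))
        (Bool.rec 0 (Nat.add m 1) (hints W M db 64 (Nat.shiftRight s 13) m))
        (Nat.beq (Nat.land s 8191) 0) := rfl
    rw [e] at h
    cases h0 : Nat.beq (Nat.land s 8191) 0 with
    | false =>
      rw [h0] at h
      exact ih _ _ _ h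
    | true =>
      rw [h0] at h
      cases h1 : hints W M db 64 (Nat.shiftRight s 13) m with
      | false => rw [h1] at h; cases h
      | true =>
        rw [h1] at h
        have hx : m = x := by
          have : m + 1 = x + 1 := h
          omega
        subst hx
        apply Classical.byContradiction
        intro hn
        refine hints_sound hW hdb 64 _ m h1 ?_
        intro i hi
        cases hl : litV W τ i with
        | false => rfl
        | true => exact absurd ⟨i, hi, hl⟩ hn

theorem lemma1_sound {W M : Nat} (hW : 0 < W) {τ : Nat → Bool} {db db' : T} (hdb : Inv W τ db)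
    {x : Nat} (h : lemma1 W M db x = some db') : Inv W τ db' := by
  have e : lemma1 W M db x =
      Bool.rec (some (setB db (Nat.land x 8191) (Nat.sub (lits W M db 8191 (Nat.shiftRight x 13) 0) 1))) none
        (Nat.beq (lits W M db 8191 (Nat.shiftRight x 13) 0) 0) := rfl
  rw [e] at h
  generalize hm : lits W M db 8191 (Nat.shiftRight x 13) 0 = m at h
  cases h0 : Nat.beq m 0 with
  | true => rw [h0] at h; cases h
  | false =>
    rw [h0] at h
    have hne : m ≠ 0 := by
      intro hz; rw [hz] at h0; cases h0
    have h2 : m = (m - 1) + 1 := by omega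
    rw [h2] at hm
    have hT := lits_sound (M := M) hW hdb _ _ _ _ hm
    have h3 : some (setB db (Nat.land x 8191) (Nat.sub m 1)) = some db' := h
    cases h3
    exact inv_setB hdb _ hT

theorem run_sound {W M : Nat} (hW : 0 < W) {τ : Nat → Bool} :
    ∀ (l : List Nat) (db db' : T), Inv W τ db → run W M l db = some db' → Inv W τ db' := by
  intro l
  induction l with
  | nil =>
    intro db db' h he
    have : some db = some db' := he
    cases this; exact h
  | cons x l ih =>
    intro db db' h he
    have e : run W M (x :: l) db = Option.rec none (fun d => run W M l d) (lemma1 W M db x) := rfl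
    rw [e] at he
    cases h1 : lemma1 W M db x with
    | none => rw [h1] at he; cases he
    | some d =>
      rw [h1] at he
      exact ih d db' (lemma1_sound hW h h1) he

theorem runAll_sound {W M : Nat} (hW : 0 < W) {τ : Nat → Bool} :
    ∀ (l : List (List Nat)) (db db' : T), Inv W τ db → runAll W M l db = some db' → Inv W τ db' := by
  intro l
  induction l with
  | nil =>
    intro db db' h he
    have : some db = some db' := he
    cases this; exact h
  | cons x l ih =>
    intro db db' h he
    have e : runAll W M (x :: l) db = Option.rec none (fun d => runAll W M l d) (run W M x db) := rfl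
    rw [e] at he
    cases h1 : run W M x db with
    | none => rw [h1] at he; cases he
    | some d =>
      rw [h1] at he
      exact ih d db' (run_sound hW _ _ _ h h1) he

end Vale.Agent.Lib.P038.Sat
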