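import Vale.Agent.Lib.P038.Sat.Core
/-!
One segment of a certificate: it takes clauses produced by earlier segments and by a clause
generator, and derives new clauses.
-/
noncomputable section
namespace Vale.Agent.Lib.P038.Sat

/-- Literals in the token form: tokens `l + 1`, 13 bits each, ended by `0`. -/
def toks : Nat → Nat → List Nat :=
  fun f => Nat.rec (motive := fun _ => Nat → List Nat) (fun _ => [])
    (fun _ ih s => Bool.rec (List.cons (Nat.sub (Nat.land s 8191) 1) (ih (Nat.shiftRight s 13))) [] (Nat.beq (Nat.land s 8191) 0)) f

/-- The literals of the clause `x`. -/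
def cl (x : Nat) : List Nat := toks 255 x

/-- The mask with the given bits. -/
def maskOf : List Nat → Nat :=
  fun l => List.rec (motive := fun _ => Nat) 0 (fun a _ ih => Nat.lor ih (Nat.shiftLeft 1 a)) l

theorem testBit_maskOf (l : List Nat) (i : Nat) : (maskOf l).testBit i = true ↔ i ∈ l := by
  induction l with
  | nil =>
    show (0 : Nat).testBit i = true ↔ i ∈ ([] : List Nat)
    simp
  | cons a l ih =>
    show (Nat.lor (maskOf l) (Nat.shiftLeft 1 a)).testBit i = true ↔ i ∈ a :: l
    show ((maskOf l) ||| (1 <<< a)).testBit i = true ↔ i ∈ a :: l
    rw [Nat.testBit_or, Nat.one_shiftLeft, Nat.testBit_two_pow]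
    simp only [Bool.or_eq_true, ih, List.mem_cons, decide_eq_true_eq]
    constructor
    · rintro (h | h)
      · exact Or.inr h
      · exact Or.inl h.symm
    · rintro (h | h)
      · exact Or.inr h.symm
      · exact Or.inl h

/-- The clause `x` holds under `τ`. -/
def HL (W : Nat) (τ : Nat → Bool) (x : Nat) : Prop :=
  ∃ l, l ∈ cl x ∧ litV W τ l = true

theorem maskTrue_of_HL {W : Nat} {τ : Nat → Bool} {x : Nat} (h : HL W τ x) :
    maskTrue W τ (maskOf (cl x)) := by
  obtain ⟨l, hl, ht⟩ := h
  exact ⟨l, (testBit_maskOf _ _).2 hl, ht⟩

theorem HL_of_maskTrue {W : Nat} {τ : Nat → Bool} {x : Nat} (h : maskTrue W τ (maskOf (cl x))) :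
    HL W τ x := by
  obtain ⟨l, hl, ht⟩ := h
  exact ⟨l, (testBit_maskOf _ _).1 hl, ht⟩

/-- Truth value of a literal of the generator: `g / 2` is the variable, `g % 2` the sign. -/
def litG (τ : Nat → Bool) (g : Nat) : Bool :=
  if g % 2 = 0 then τ (g / 2) else !τ (g / 2)

/-- A clause of the generator holds. -/
def holdsG (τ : Nat → Bool) (c : List Nat) : Prop :=
  ∃ g, g ∈ c ∧ litG τ g = true

/-- The variable of the generator behind the local variable `i`. -/
def gv (GT i : Nat) : Nat := Nat.land (Nat.shiftRight GT (Nat.mul 24 i)) 16777215

/-- The local literal `l` in the numbering of the generator. -/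
def gl (W GT l : Nat) : Nat :=
  Nat.add (Nat.mul 2 (gv GT (Nat.mod l W))) (Nat.mod (Nat.div l W) 2)

/-- The local assignment. -/
def loc (GT : Nat) (τ : Nat → Bool) (i : Nat) : Bool := τ (gv GT i)

theorem litG_gl (W GT : Nat) (τ : Nat → Bool) (l : Nat) :
    litG τ (gl W GT l) = litV W (loc GT τ) l := by
  have e : gl W GT l = 2 * gv GT (l % W) + (l / W) % 2 := rfl
  unfold litG litV loc
  rw [e]
  have h1 : (2 * gv GT (l % W) + (l / W) % 2) % 2 = (l / W) % 2 := by omega
  have h2 : (2 * gv GT (l % W) + (l / W) % 2) / 2 = gv GT (l % W) := by omega
  rw [h1, h2]

/-- Equality of lists of numbers. -/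
def leq : List Nat → List Nat → Bool :=
  fun a => List.rec (motive := fun _ => List Nat → Bool)
    (fun b => List.rec (motive := fun _ => Bool) true (fun _ _ _ => false) b)
    (fun x _ ih b => List.rec (motive := fun _ => Bool) false (fun y l _ => Bool.rec false (ih l) (Nat.beq x y)) b) a

theorem leq_eq : ∀ (a b : List Nat), leq a b = true → a = b := by
  intro a
  induction a with
  | nil =>
    intro b h
    cases b with
    | nil => rfl
    | cons y l => cases h
  | cons x a ih =>
    intro b h
    cases b with
    | nil => cases h
    | cons y l =>
      have e : leq (x :: a) (y :: l) = Bool.rec false (leq a l) (Nat.beq x y) := rfl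
      rw [e] at h
      cases hb : Nat.beq x y with
      | false => rw [hb] at h; cases h
      | true =>
        rw [hb] at h
        rw [Nat.eq_of_beq_eq_true hb, ih l h]

/-- Local literals of a generated clause; `none` if they do not match. -/
def baseStep (gen : Nat → Option (List Nat)) (W GT : Nat) (db : T) (y : Nat) : Option T :=
  Option.rec none
    (fun c => Bool.rec none
      (some (setB db (Nat.land (Nat.shiftRight y 33) 8191) (maskOf (cl (Nat.shiftRight y 46)))))
      (leq ((cl (Nat.shiftRight y 46)).map (gl W GT)) c))
    (gen (Nat.land y 8589934591))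

def baseRun (gen : Nat → Option (List Nat)) (W GT : Nat) : List Nat → T → Option T :=
  fun l => List.rec (motive := fun _ => T → Option T) (fun db => some db)
    (fun x _ ih db => Option.rec none (fun db' => ih db') (baseStep gen W GT db x)) l

def baseAll (gen : Nat → Option (List Nat)) (W GT : Nat) : List (List Nat) → T → Option T :=
  fun l => List.rec (motive := fun _ => T → Option T) (fun db => some db)
    (fun x _ ih db => Option.rec none (fun db' => ih db') (baseRun gen W GT x db)) l

/-- Load a clause of an earlier segment: the low 13 bits are the key, the rest its number. -/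
def inStep (lo : Nat) (H db : T) (y : Nat) : Option T :=
  Bool.rec none
    (some (setB db (Nat.land y 8191) (maskOf (cl (getB H (Nat.shiftRight y 13))))))
    (Nat.blt (Nat.shiftRight y 13) lo)

def inRun (lo : Nat) (H : T) : List Nat → T → Option T :=
  fun l => List.rec (motive := fun _ => T → Option T) (fun db => some db)
    (fun x _ ih db => Option.rec none (fun db' => ih db') (inStep lo H db x)) l

def inAll (lo : Nat) (H : T) : List (List Nat) → T → Option T :=
  fun l => List.rec (motive := fun _ => T → Option T) (fun db => some db)
    (fun x _ ih db => Option.rec none (fun db' => ih db') (inRun lo H x db)) l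

/-- Check that the clauses with the numbers from `g` on are stored at the given keys. -/
def outRun (H db : T) : List Nat → Nat → Option Nat :=
  fun l => List.rec (motive := fun _ => Nat → Option Nat) (fun g => some g)
    (fun s _ ih g => Bool.rec none (ih (Nat.add g 1)) (Nat.beq (getB db s) (maskOf (cl (getB H g))))) l

def outAll (H db : T) : List (List Nat) → Nat → Option Nat :=
  fun l => List.rec (motive := fun _ => Nat → Option Nat) (fun g => some g)
    (fun x _ ih g => Option.rec none (fun g' => ih g') (outRun H db x g)) l

/-- The whole check of a segment. -/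
def segCheck (gen : Nat → Option (List Nat)) (W M GT d lo hi : Nat) (H : T)
    (base inU pf out : List (List Nat)) : Bool :=
  Bool.rec
    (Option.rec false
      (fun db1 => Option.rec false
        (fun db2 => Option.rec false
          (fun db3 => Option.rec false (fun g => Nat.beq g hi) (outAll H db3 out lo))
          (runAll W M pf db2))
        (inAll lo H inU db1))
      (baseAll gen W GT base (mk (Nat.lor 1 (Nat.shiftLeft 1 W)) d 0)))
    false (Nat.beq W 0)

theorem baseAll_sound {gen : Nat → Option (List Nat)} {W GT : Nat} {τ : Nat → Bool}
    (hgen : ∀ t c, gen t = some c → holdsG τ c) :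
    ∀ (l : List (List Nat)) (db db' : T), Inv W (loc GT τ) db → baseAll gen W GT l db = some db' →
      Inv W (loc GT τ) db' := by
  have step : ∀ (db db' : T) (y : Nat), Inv W (loc GT τ) db → baseStep gen W GT db y = some db' →
      Inv W (loc GT τ) db' := by
    intro db db' y hdb h
    unfold baseStep at h
    cases hg : gen (Nat.land y 8589934591) with
    | none => rw [hg] at h; cases h
    | some c =>
      rw [hg] at h
      cases hq : leq ((cl (Nat.shiftRight y 46)).map (gl W GT)) c with
      | false =>
        have : (Bool.rec none (some (setB db (Nat.land (Nat.shiftRight y 33) 8191) (maskOf (cl (Nat.shiftRight y 46)))))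
            (leq ((cl (Nat.shiftRight y 46)).map (gl W GT)) c) : Option T) = some db' := h
        rw [hq] at this; cases this
      | true =>
        have h2 : (Bool.rec none (some (setB db (Nat.land (Nat.shiftRight y 33) 8191) (maskOf (cl (Nat.shiftRight y 46)))))
            (leq ((cl (Nat.shiftRight y 46)).map (gl W GT)) c) : Option T) = some db' := h
        rw [hq] at h2
        have h3 : some (setB db (Nat.land (Nat.shiftRight y 33) 8191) (maskOf (cl (Nat.shiftRight y 46)))) = some db' := h2
        cases h3
        apply inv_setB hdb
        apply maskTrue_of_HL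
        obtain ⟨g, hgc, hgt⟩ := hgen _ _ hg
        rw [← leq_eq _ _ hq] at hgc
        obtain ⟨l, hl, rfl⟩ := List.mem_map.1 hgc
        exact ⟨l, hl, by rw [← litG_gl]; exact hgt⟩
  have run' : ∀ (l : List Nat) (db db' : T), Inv W (loc GT τ) db → baseRun gen W GT l db = some db' →
      Inv W (loc GT τ) db' := by
    intro l
    induction l with
    | nil =>
      intro db db' h he
      have : some db = some db' := he
      cases this; exact h
    | cons x l ih =>
      intro db db' h he
      have e : baseRun gen W GT (x :: l) db = Option.rec none (fun d => baseRun gen W GT l d) (baseStep gen W GT db x) := rfl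
      rw [e] at he
      cases h1 : baseStep gen W GT db x with
      | none => rw [h1] at he; cases he
      | some d =>
        rw [h1] at he
        exact ih d db' (step _ _ _ h h1) he
  intro l
  induction l with
  | nil =>
    intro db db' h he
    have : some db = some db' := he
    cases this; exact h
  | cons x l ih =>
    intro db db' h he
    have e : baseAll gen W GT (x :: l) db = Option.rec none (fun d => baseAll gen W GT l d) (baseRun gen W GT x db) := rfl
    rw [e] at he
    cases h1 : baseRun gen W GT x db with
    | none => rw [h1] at he; cases he
    | some d =>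
      rw [h1] at he
      exact ih d db' (run' _ _ _ h h1) he

theorem inAll_sound {W lo : Nat} {H : T} {τ : Nat → Bool}
    (hH : ∀ g, g < lo → HL W τ (getB H g)) :
    ∀ (l : List (List Nat)) (db db' : T), Inv W τ db → inAll lo H l db = some db' → Inv W τ db' := by
  have step : ∀ (db db' : T) (y : Nat), Inv W τ db → inStep lo H db y = some db' → Inv W τ db' := by
    intro db db' y hdb h
    have e : inStep lo H db y = Bool.rec none
        (some (setB db (Nat.land y 8191) (maskOf (cl (getB H (Nat.shiftRight y 13))))))
        (Nat.blt (Nat.shiftRight y 13) lo) := rfl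
    rw [e] at h
    cases hb : Nat.blt (Nat.shiftRight y 13) lo with
    | false => rw [hb] at h; cases h
    | true =>
      rw [hb] at h
      have h3 : some (setB db (Nat.land y 8191) (maskOf (cl (getB H (Nat.shiftRight y 13))))) = some db' := h
      cases h3
      apply inv_setB hdb
      apply maskTrue_of_HL
      apply hH
      have : Nat.ble (Nat.shiftRight y 13 + 1) lo = true := hb
      exact Nat.le_of_ble_eq_true this
  have run' : ∀ (l : List Nat) (db db' : T), Inv W τ db → inRun lo H l db = some db' → Inv W τ db' := by
    intro l
    induction l with
    | nil =>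
      intro db db' h he
      have : some db = some db' := he
      cases this; exact h
    | cons x l ih =>
      intro db db' h he
      have e : inRun lo H (x :: l) db = Option.rec none (fun d => inRun lo H l d) (inStep lo H db x) := rfl
      rw [e] at he
      cases h1 : inStep lo H db x with
      | none => rw [h1] at he; cases he
      | some d =>
        rw [h1] at he
        exact ih d db' (step _ _ _ h h1) he
  intro l
  induction l with
  | nil =>
    intro db db' h he
    have : some db = some db' := he
    cases this; exact h
  | cons x l ih =>
    intro db db' h he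
    have e : inAll lo H (x :: l) db = Option.rec none (fun d => inAll lo H l d) (inRun lo H x db) := rfl
    rw [e] at he
    cases h1 : inRun lo H x db with
    | none => rw [h1] at he; cases he
    | some d =>
      rw [h1] at he
      exact ih d db' (run' _ _ _ h h1) he

theorem outAll_sound {W : Nat} {H db : T} {τ : Nat → Bool} (hdb : Inv W τ db) :
    ∀ (l : List (List Nat)) (g g' : Nat), outAll H db l g = some g' →
      g ≤ g' ∧ ∀ j, g ≤ j → j < g' → HL W τ (getB H j) := by
  have run' : ∀ (l : List Nat) (g g' : Nat), outRun H db l g = some g' →
      g ≤ g' ∧ ∀ j, g ≤ j → j < g' → HL W τ (getB H j) := by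
    intro l
    induction l with
    | nil =>
      intro g g' h
      have h1 : some g = some g' := h
      cases h1
      exact ⟨Nat.le_refl _, fun j h1 h2 => absurd h2 (by omega)⟩
    | cons s l ih =>
      intro g g' h
      have e : outRun H db (s :: l) g = Bool.rec none (outRun H db l (Nat.add g 1))
          (Nat.beq (getB db s) (maskOf (cl (getB H g)))) := rfl
      rw [e] at h
      cases hb : Nat.beq (getB db s) (maskOf (cl (getB H g))) with
      | false => rw [hb] at h; cases h
      | true =>
        rw [hb] at h
        obtain ⟨h1, h2⟩ := ih (g + 1) g' h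
        refine ⟨by omega, ?_⟩
        intro j hj1 hj2
        by_cases hj : j = g
        · subst hj
          apply HL_of_maskTrue
          rw [← Nat.eq_of_beq_eq_true hb]
          exact hdb s
        · exact h2 j (by omega) hj2
  intro l
  induction l with
  | nil =>
    intro g g' h
    have h1 : some g = some g' := h
    cases h1
    exact ⟨Nat.le_refl _, fun j h1 h2 => absurd h2 (by omega)⟩
  | cons x l ih =>
    intro g g' h
    have e : outAll H db (x :: l) g = Option.rec none (fun g1 => outAll H db l g1) (outRun H db x g) := rfl
    rw [e] at h
    cases h1 : outRun H db x g with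
    | none => rw [h1] at h; cases h
    | some g1 =>
      rw [h1] at h
      obtain ⟨a1, a2⟩ := run' _ _ _ h1
      obtain ⟨b1, b2⟩ := ih _ _ h
      refine ⟨by omega, ?_⟩
      intro j hj1 hj2
      by_cases hj : j < g1
      · exact a2 j hj1 hj
      · exact b2 j (by omega) hj2

/-- Soundness of a segment. -/
theorem segCheck_sound {gen : Nat → Option (List Nat)} {W M GT d lo hi : Nat} {H : T}
    {base inU pf out : List (List Nat)} (h : segCheck gen W M GT d lo hi H base inU pf out = true)
    {τ : Nat → Bool} (hgen : ∀ t c, gen t = some c → holdsG τ c)
    (hin : ∀ g, g < lo → HL W (loc GT τ) (getB H g)) :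
    ∀ g, lo ≤ g → g < hi → HL W (loc GT τ) (getB H g) := by
  unfold segCheck at h
  cases hW : Nat.beq W 0 with
  | true => rw [hW] at h; cases h
  | false =>
    rw [hW] at h
    have hW0 : 0 < W := by
      have : W ≠ 0 := by
        intro hz; rw [hz] at hW; cases hW
      omega
    have h0 := inv_mk (W := W) (τ := loc GT τ) (maskTrue_tt W hW0 (loc GT τ)) d 0
    have h' : (Option.rec false
      (fun db1 => Option.rec false
        (fun db2 => Option.rec false
          (fun db3 => Option.rec false (fun g => Nat.beq g hi) (outAll H db3 out lo))
          (runAll W M pf db2))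
        (inAll lo H inU db1))
      (baseAll gen W GT base (mk (Nat.lor 1 (Nat.shiftLeft 1 W)) d 0)) : Bool) = true := h
    cases h1 : baseAll gen W GT base (mk (Nat.lor 1 (Nat.shiftLeft 1 W)) d 0) with
    | none => rw [h1] at h'; cases h'
    | some db1 =>
      rw [h1] at h'
      have i1 := baseAll_sound hgen _ _ _ h0 h1
      have h2' : (Option.rec false
        (fun db2 => Option.rec false
          (fun db3 => Option.rec false (fun g => Nat.beq g hi) (outAll H db3 out lo))
          (runAll W M pf db2))
        (inAll lo H inU db1) : Bool) = true := h'
      cases h2 : inAll lo H inU db1 with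
      | none => rw [h2] at h2'; cases h2'
      | some db2 =>
        rw [h2] at h2'
        have i2 := inAll_sound hin _ _ _ i1 h2
        have h3' : (Option.rec false
          (fun db3 => Option.rec false (fun g => Nat.beq g hi) (outAll H db3 out lo))
          (runAll W M pf db2) : Bool) = true := h2'
        cases h3 : runAll W M pf db2 with
        | none => rw [h3] at h3'; cases h3'
        | some db3 =>
          rw [h3] at h3'
          have i3 := runAll_sound hW0 _ _ _ i2 h3
          have h4' : (Option.rec false (fun g => Nat.beq g hi) (outAll H db3 out lo) : Bool) = true := h3'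
          cases h4 : outAll H db3 out lo with
          | none => rw [h4] at h4'; cases h4'
          | some g' =>
            rw [h4] at h4'
            have hg : g' = hi := Nat.eq_of_beq_eq_true h4'
            subst hg
            exact (outAll_sound i3 _ _ _ h4).2

/-- Chaining segments. -/
theorem seg_chain {P : Nat → Prop} {lo hi : Nat} (h1 : ∀ g, g < lo → P g)
    (h2 : (∀ g, g < lo → P g) → ∀ g, lo ≤ g → g < hi → P g) : ∀ g, g < hi → P g := by
  intro g hg
  by_cases h : g < lo
  · exact h1 g h
  · exact h2 h1 g (by omega) hg

/-- The clause `0` is empty. -/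
theorem HL_zero (W : Nat) (τ : Nat → Bool) : ¬ HL W τ 0 := by
  rintro ⟨l, hl, _⟩
  have : cl 0 = [] := by decide
  rw [this] at hl
  cases hl

end Vale.Agent.Lib.P038.Sat
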