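import Vale.Agent.Lib.P038.Sat.Bridge
import Vale.Agent.Lib.P038.Sat.Shapes.S0_0f
import Vale.Agent.Lib.P038.Sat.Shapes.S1_0f
import Vale.Agent.Lib.P038.Sat.Shapes.S2_0f
import Vale.Agent.Lib.P038.Sat.Shapes.S3_0f
import Vale.Agent.Lib.P038.Sat.Shapes.S4_0f
import Vale.Agent.Lib.P038.Sat.Shapes.S5_0f
import Vale.Agent.Lib.P038.Sat.Shapes.S6_0f
import Vale.Agent.Lib.P038.Sat.Shapes.S6_0t
import Vale.Agent.Lib.P038.Sat.Shapes.S6_1t
import Vale.Agent.Lib.P038.Sat.Shapes.S6_2t
import Vale.Agent.Lib.P038.Sat.Shapes.S6_3t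
import Vale.Agent.Lib.P038.Sat.Shapes.S6_4t
import Vale.Agent.Lib.P038.Sat.Shapes.S6_5t
import Vale.Agent.Lib.P038.Sat.Shapes.S6_6t
import Vale.Agent.Lib.P038.Sat.Shapes.S6_7t
import Vale.Agent.Lib.P038.Sat.Shapes.S6_8t
/-!
The case analysis: a vertex of out-degree seven in a counterexample leads to one of the cases
refuted by the certificates.
-/
namespace Vale.Agent.Lib.P038.Sat

open Finset Vale.Agent.Lib.P038

variable {V : Type*} [Fintype V] {r : V → V → Prop}

/-- The shapes with few second neighbours. -/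
def shL : ℕ → Shape
  | 0 => sh_0_0_f | 1 => sh_1_0_f | 2 => sh_2_0_f | 3 => sh_3_0_f | 4 => sh_4_0_f | _ => sh_5_0_f

/-- The shapes of the main case. -/
def shT : ℕ → Shape
  | 0 => sh_6_0_t | 1 => sh_6_1_t | 2 => sh_6_2_t | 3 => sh_6_3_t | 4 => sh_6_4_t
  | 5 => sh_6_5_t | 6 => sh_6_6_t | 7 => sh_6_7_t | _ => sh_6_8_t

theorem shL_m {m : ℕ} (h : m ≤ 5) : (shL m).m = m ∧ (shL m).c = 0 ∧ (shL m).lvl3 = false := by
  interval_cases m <;> exact ⟨rfl, rfl, rfl⟩

theorem shT_m {c : ℕ} (h : c ≤ 8) : (shT c).m = 6 ∧ (shT c).c = c ∧ (shT c).lvl3 = true := by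
  interval_cases c <;> exact ⟨rfl, rfl, rfl⟩

open Classical in
theorem xy_sum (hr : ∀ u w, r u w → ¬ r w u) {v a : V} (ha : a ∈ out r v) :
    xr r v a + yr r v a = (out r a).card := by
  unfold xr yr
  rw [← Finset.card_union_of_disjoint]
  · congr 1
    ext z
    simp only [Finset.mem_union, Finset.mem_filter, mem_out']
    constructor
    · rintro (h | h) <;> exact h.2
    · intro h
      rcases out_of_A hr ha h with h1 | h1
      · exact Or.inl ⟨mem_out'.1 h1, h⟩
      · exact Or.inr ⟨h1, h⟩
  · rw [Finset.disjoint_left]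
    intro z h1 h2
    exact disj_out_second (Finset.mem_filter.1 h1).1 (Finset.mem_filter.1 h2).1

open Classical in
theorem yr_le {v a : V} : yr r v a ≤ (second r v).card := Finset.card_filter_le _ _

open Classical in
theorem sum_xr_le (hr : ∀ u w, r u w → ¬ r w u) (U : Finset V) :
    2 * ∑ a ∈ U, (U.filter (r a)).card ≤ U.card * (U.card - 1) := by
  have h1 : ∑ a ∈ U, (U.filter (r a)).card = ∑ a ∈ U, ∑ z ∈ U, (if r a z then 1 else 0) := by
    apply Finset.sum_congr rfl
    intro a _
    rw [Finset.card_filter]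
  have h2 : ∑ a ∈ U, ∑ z ∈ U, (if r a z then 1 else 0) = ∑ a ∈ U, ∑ z ∈ U, (if r z a then 1 else 0) :=
    Finset.sum_comm
  have h3 : ∑ a ∈ U, ∑ z ∈ U, ((if r a z then 1 else 0) + (if r z a then 1 else 0)) ≤ ∑ a ∈ U, (U.card - 1) := by
    apply Finset.sum_le_sum
    intro a ha
    have h4 : ∑ z ∈ U, ((if r a z then 1 else 0) + (if r z a then 1 else 0)) ≤ ∑ z ∈ U.erase a, 1 := by
      rw [← Finset.add_sum_erase U _ ha]
      have h5 : (if r a a then 1 else 0) + (if r a a then 1 else 0) = 0 := by
        simp [irr hr a]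
      rw [h5, Nat.zero_add]
      apply Finset.sum_le_sum
      intro z _
      by_cases h6 : r a z
      · have := hr _ _ h6
        simp [h6, this]
      · by_cases h7 : r z a <;> simp [h6, h7]
    simpa [Finset.card_erase_of_mem ha] using h4
  simp only [Finset.sum_add_distrib] at h3
  rw [← h2] at h3
  rw [h1]
  simp only [Finset.sum_const, smul_eq_mul] at h3
  omega

theorem xr_avg (hr : ∀ u w, r u w → ¬ r w u) {v : V} (hv : (out r v).card = 7) :
    ∑ a ∈ out r v, xr r v a ≤ 21 := by
  classical
  have h := sum_xr_le hr (out r v)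
  rw [hv] at h
  unfold xr
  have e : ∑ a ∈ out r v, ((out r v).filter (r a)).card ≤ 21 := by
    omega
  convert e

/-- The core statement, with the refutations of the cases as hypotheses. -/
theorem seven_core
    (hL1 : ∀ m, m ≤ 5 → ∀ K, Good (shL m) (flL1 m) K → False)
    (hL2a : ∀ K, Good sh_6_0_f flL2a K → False)
    (hL2b : ∀ K, Good sh_6_0_f flL2b K → False)
    (hReg : ∀ K, Good sh_6_0_f flReg K → False)
    (hM : ∀ q c, (q = 1 ∨ q = 2 ∨ q = 3) → c ≤ 8 → ∀ K, Good (shT c) (flM q) K → False)
    (hr : ∀ u w, r u w → ¬ r w u) (hns : ∀ u, (second r u).card < (out r u).card)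
    (hdeg : ∀ u, 7 ≤ (out r u).card) {v : V} (hv : (out r v).card = 7) : False := by
  classical
  have hm : (second r v).card ≤ 6 := by
    have := hns v
    omega
  by_cases hm5 : (second r v).card ≤ 5
  · -- few second neighbours
    obtain ⟨h1, h2, h3⟩ := shL_m hm5
    obtain ⟨K, hK⟩ := plain_good (S := shL (second r v).card) (F := flL1 (second r v).card) hr hns hdeg hv
      h1 h2 h3 rfl (fun _ _ => Nat.zero_le _) (by intro z _ x hx; simp [flL1] at hx)
      (by
        intro i hi
        simp [flL1] at hi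
        omega)
      (by
        intro i hi
        rw [h1]
        simp only [flL1, List.mem_map, List.mem_range] at hi
        obtain ⟨j, hj, rfl⟩ := hi
        omega)
      (by intro h; simp [flL1] at h)
    exact hL1 _ hm5 K hK
  have hm6 : (second r v).card = 6 := by omega
  by_cases h25 : ∃ a, a ∈ out r v ∧ xr r v a = 2 ∧ yr r v a = 5
  · obtain ⟨a0, ha0, hx, hy⟩ := h25
    obtain ⟨K, hK⟩ := root_good (S := sh_6_0_f) (F := flL2a) (Cs := []) hr hns hdeg hv ha0 hm6.symm rfl hx.symm hy.symm
      (fun _ _ => Nat.zero_le _) (by intro z _ x hx; simp [flL2a] at hx)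
      (by
        intro i hi
        simp only [flL2a, List.mem_cons, List.not_mem_nil, or_false] at hi
        show 2 ≤ i ∧ i + 1 < 8 ∧ i ≠ 1 + 2
        omega)
      (by
        intro i hi
        simp only [flL2a, List.mem_cons, List.not_mem_nil, or_false] at hi
        show 8 ≤ i ∧ i + 1 < 8 + 6 ∧ i ≠ 7 + 5
        omega)
      rfl List.nodup_nil rfl (by simp) (by simp) (by intro h; cases h) (fun _ => rfl)
    exact hL2a K hK
  by_cases h34 : ∃ a, a ∈ out r v ∧ xr r v a = 3 ∧ yr r v a = 4
  · obtain ⟨a0, ha0, hx, hy⟩ := h34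
    obtain ⟨K, hK⟩ := root_good (S := sh_6_0_f) (F := flL2b) (Cs := []) hr hns hdeg hv ha0 hm6.symm rfl hx.symm hy.symm
      (fun _ _ => Nat.zero_le _)
      (by
        intro z hz x hx
        simp only [flL2b, List.mem_cons, List.not_mem_nil, or_false] at hx
        subst hx
        intro h
        exact h25 ⟨z, hz, h.1, h.2⟩)
      (by
        intro i hi
        simp only [flL2b, List.mem_cons, List.not_mem_nil, or_false] at hi
        show 2 ≤ i ∧ i + 1 < 8 ∧ i ≠ 1 + 3
        omega)
      (by
        intro i hi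
        simp only [flL2b, List.mem_cons, List.not_mem_nil, or_false] at hi
        show 8 ≤ i ∧ i + 1 < 8 + 6 ∧ i ≠ 7 + 4
        omega)
      rfl List.nodup_nil rfl (by simp) (by simp) (by intro h; cases h) (fun _ => rfl)
    exact hL2b K hK
  -- the main case
  have hne : (out r v).Nonempty := by
    rw [← Finset.card_pos]; omega
  obtain ⟨a0, ha0, hmin⟩ := Finset.exists_min_image (out r v) (xr r v) hne
  have hsum := xr_avg hr hv
  have hq3 : xr r v a0 ≤ 3 := by
    by_contra hc
    have : ∑ a ∈ out r v, 4 ≤ ∑ a ∈ out r v, xr r v a :=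
      Finset.sum_le_sum (fun a ha => by have := hmin a ha; omega)
    simp only [Finset.sum_const, smul_eq_mul, hv] at this
    omega
  have hxy : ∀ a, a ∈ out r v → 7 ≤ xr r v a + yr r v a := by
    intro a ha
    rw [xy_sum hr ha]
    exact hdeg a
  have hy6 : ∀ a, yr r v a ≤ 6 := by
    intro a
    rw [← hm6]
    exact yr_le
  -- a vertex with all of `B`, or all of type `(3, 5)`
  have hforb : ∀ z, z ∈ out r v → ¬ (xr r v z = 2 ∧ yr r v z = 5) ∧ ¬ (xr r v z = 3 ∧ yr r v z = 4) := by
    intro z hz
    exact ⟨fun h => h25 ⟨z, hz, h.1, h.2⟩, fun h => h34 ⟨z, hz, h.1, h.2⟩⟩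
  have hchoice : (∃ a1, a1 ∈ out r v ∧ (xr r v a1 = 1 ∨ xr r v a1 = 2 ∨ xr r v a1 = 3) ∧ yr r v a1 = 6 ∧
      ∀ a, a ∈ out r v → xr r v a1 ≤ xr r v a) ∨ (∀ a, a ∈ out r v → xr r v a = 3 ∧ yr r v a = 5) := by
    have hq0 : 1 ≤ xr r v a0 := by
      have h1 := hxy a0 ha0
      have h2 := hy6 a0
      omega
    by_cases hq : xr r v a0 ≤ 2
    · left
      have h1 := hxy a0 ha0
      have h2 := hy6 a0
      have h3 := hforb a0 ha0
      refine ⟨a0, ha0, by omega, by omega, hmin⟩
    · -- all have three
      have hq' : xr r v a0 = 3 := by omega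
      have hall : ∀ a, a ∈ out r v → xr r v a = 3 := by
        have h1 : ∑ a ∈ out r v, (xr r v a - 3) = 0 := by
          have h2 : ∑ a ∈ out r v, ((xr r v a - 3) + 3) = ∑ a ∈ out r v, xr r v a := by
            apply Finset.sum_congr rfl
            intro a ha
            have := hmin a ha
            omega
          rw [Finset.sum_add_distrib] at h2
          simp only [Finset.sum_const, smul_eq_mul, hv] at h2
          omega
        intro a ha
        have h3 := (Finset.sum_eq_zero_iff.1 h1) a ha
        have h4 := hmin a ha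
        omega
      by_cases hex : ∃ a, a ∈ out r v ∧ yr r v a = 6
      · left
        obtain ⟨a1, h1, h2⟩ := hex
        refine ⟨a1, h1, by rw [hall a1 h1]; omega, h2, ?_⟩
        intro a ha
        rw [hall a1 h1, hall a ha]
      · right
        intro a ha
        have h1 := hall a ha
        have h2 := hxy a ha
        have h3 := hy6 a
        have h4 := hforb a ha
        have h5 : yr r v a ≠ 6 := fun h => hex ⟨a, ha, h⟩
        omega
  rcases hchoice with ⟨a1, ha1, hq, hy, hmin1⟩ | hreg
  · -- the main case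
    set U : Finset V := univ.filter (fun z => z ≠ v ∧ z ∉ out r v ∧ z ∉ second r v ∧ ∃ b, b ∈ second r v ∧ r b z) with hU
    have hall : ∀ b, b ∈ second r v → r a1 b := by
      have h1 : (second r v).filter (r a1) = second r v := by
        apply Finset.eq_of_subset_of_card_le (Finset.filter_subset _ _)
        rw [hm6]
        have : yr r v a1 = ((second r v).filter (r a1)).card := rfl
        omega
      intro b hb
      rw [← h1] at hb
      exact (Finset.mem_filter.1 hb).2
    have hUsub : U ⊆ second r a1 := by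
      intro z hz
      obtain ⟨_, h1, h2, h3, b, hb, hbz⟩ := Finset.mem_filter.1 hz
      rw [mem_second']
      refine ⟨?_, ?_, b, hall b hb, hbz⟩
      · rintro rfl
        exact h2 ha1
      · intro h4
        rcases out_of_A hr ha1 h4 with h5 | h5
        · exact h2 h5
        · exact h3 h5
    have hc8 : U.card ≤ 8 := by
      have h1 := Finset.card_le_card hUsub
      have h2 := hns a1
      rw [← xy_sum hr ha1] at h2
      omega
    obtain ⟨h1, h2, h3⟩ := shT_m hc8
    have hl : ∀ z, z ∈ U.toList ↔ z ∈ U := fun z => Finset.mem_toList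
    obtain ⟨K, hK⟩ := root_good (S := shT U.card) (F := flM (xr r v a1)) (Cs := U.toList) hr hns hdeg hv ha1
      (by rw [h1, hm6]) rfl rfl hy.symm hmin1
      (by
        intro z hz x hx
        simp only [flM, List.mem_cons, List.not_mem_nil, or_false] at hx
        obtain ⟨h4, h5⟩ := hforb z hz
        rcases hx with rfl | rfl
        · exact h4
        · exact h5)
      (by
        intro i hi
        simp only [flM, List.mem_filter, List.mem_cons, List.not_mem_nil, or_false] at hi
        obtain ⟨h4, h5⟩ := hi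
        refine ⟨by omega, by omega, ?_⟩
        intro h6
        show False
        rw [show (1 + (flM (xr r v a1)).x0) = 1 + xr r v a1 from rfl] at h6
        rw [h6] at h5
        simp at h5)
      (by
        intro i hi
        rw [h1]
        simp only [flM, List.mem_cons, List.not_mem_nil, or_false] at hi
        show 8 ≤ i ∧ i + 1 < 8 + 6 ∧ i ≠ 7 + 6
        omega)
      rfl (Finset.nodup_toList U) (by rw [h2]; exact Finset.length_toList U)
      (by
        intro z hz
        obtain ⟨_, a, b, c, _⟩ := Finset.mem_filter.1 ((hl z).1 hz)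
        exact ⟨a, b, c⟩)
      (by
        intro z hz
        obtain ⟨_, _, _, _, b⟩ := Finset.mem_filter.1 ((hl z).1 hz)
        exact b)
      (by
        intro _ b hb z hbz
        by_cases h4 : z = v
        · exact Or.inl h4
        by_cases h5 : z ∈ out r v
        · exact Or.inr (Or.inl h5)
        by_cases h6 : z ∈ second r v
        · exact Or.inr (Or.inr (Or.inl h6))
        · refine Or.inr (Or.inr (Or.inr ((hl z).2 ?_)))
          exact Finset.mem_filter.2 ⟨Finset.mem_univ _, h4, h5, h6, b, hb, hbz⟩)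
      (by intro h; rw [h3] at h; cases h)
    exact hM _ _ hq hc8 K hK
  · obtain ⟨K, hK⟩ := plain_good (S := sh_6_0_f) (F := flReg) hr hns hdeg hv hm6.symm rfl rfl rfl
      (fun _ _ => Nat.zero_le _) (by intro z _ x hx; simp [flReg] at hx) (by intro i hi; simp [flReg] at hi)
      (by
        intro i hi
        simp only [flReg, List.mem_cons, List.not_mem_nil, or_false] at hi
        show 8 ≤ i ∧ i + 1 < 8 + 6
        omega)
      (fun _ => hreg)
    exact hReg K hK

end Vale.Agent.Lib.P038.Sat
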